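import Vale.Agent.P331.F.Rows

/-!
# The blame event of a target is an event of the abstract analysis
-/

set_option autoImplicit false
set_option linter.unusedSectionVars false

namespace Vale.Agent.P331.H226.BL

open Finset Vale.Agent.P331 Vale.Agent.P331.H489 Vale.Agent.P331.H250 Vale.Agent.P331.H352
  Vale.Agent.P331.F
open scoped Classical ENNReal

/-! ## Maps of labels depending on the element -/

theorem EX_pushd {E L C : Type*} [Fintype E] [Fintype L] [Fintype C]
    (g : E → L → C) (w : E → L → ℝ) (F : (E → C) → ℝ) :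
    EX w (fun ω => F (fun e => g e (ω e))) = EX (fun e c => ∑ l with g e l = c, w e l) F := by
  unfold EX
  have h : ∀ κ : E → C, (∏ e, ∑ l with g e l = κ e, w e l) =
      ∑ ω : E → L with (fun e => g e (ω e)) = κ, ∏ e, w e (ω e) := by
    intro κ
    rw [Finset.prod_univ_sum]
    refine sum_congr ?_ fun _ _ => rfl
    ext ω
    simp only [Fintype.mem_piFinset, mem_filter, mem_univ, true_and]
    exact funext_iff.symm
  simp only [h, sum_mul]
  rw [← sum_fiberwise_of_maps_to (s := univ) (t := univ)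
    (g := fun ω : E → L => fun e => g e (ω e)) (fun _ _ => mem_univ _)]
  refine sum_congr rfl fun κ _ => sum_congr rfl fun ω hω => ?_
  rw [(mem_filter.1 hω).2]

variable {E : Type} [Fintype E]

theorem ind_le {P Q : Prop} (h : P → Q) : F.ind P ≤ F.ind Q := by
  unfold F.ind
  by_cases hP : P
  · rw [if_pos hP, if_pos (h hP)]
  · rw [if_neg hP]
    split_ifs <;> norm_num

theorem ind_nn (P : Prop) : 0 ≤ F.ind P := by
  unfold F.ind
  split_ifs <;> norm_num

theorem ind_eq {P Q : Prop} (h : P ↔ Q) : F.ind P = F.ind Q := by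
  rw [propext h]

/-- a thinning of `S` cut to `A` is a thinning of `S ∩ A` -/
theorem Th_res (t : ℝ) (S A : Finset E) (f : Finset E → ℝ) :
    Th t S (fun G => f (G ∩ A)) = Th t (S ∩ A) f := by
  have h1 : Th t S (fun G => f (G ∩ A)) = EX (bw (fun _ => t) S) (fun b => f (tset b ∩ A)) := rfl
  have h2 : (fun b : E → Bool => f (tset b ∩ A)) =
      fun b => (fun c : E → Bool => f (tset c)) (fun e => (fun e b => b && decide (e ∈ A)) e (b e)) := by
    funext b
    dsimp only
    congr 1
    ext e
    rw [mem_inter, mem_tset, mem_tset]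
    simp
  rw [h1, h2, EX_pushd (fun e b => b && decide (e ∈ A)) (bw (fun _ => t) S)
    (fun c : E → Bool => f (tset c))]
  have h3 : Th t (S ∩ A) f = EX (bw (fun _ => t) (S ∩ A)) (fun b => f (tset b)) := rfl
  rw [h3]
  refine EX_congr (fun e c => ?_) fun _ => rfl
  rw [sum_filter, Fintype.sum_bool]
  by_cases hS : e ∈ S <;> by_cases hA : e ∈ A <;> cases c <;> simp [bw, hS, hA]

theorem EX_Th (p : ℝ) (f : Finset E → ℝ) :
    EX (fun (_ : E) (b : Bool) => if b then p else 1 - p) (fun ω => f (tset ω)) = Th p univ f := by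
  have h3 : Th p univ f = EX (bw (fun _ => p) univ) (fun b => f (tset b)) := rfl
  rw [h3]
  refine EX_congr (fun e c => ?_) fun _ => rfl
  simp [bw]

section cut

variable {D D' : Finset E → Prop} {A : Finset E}

theorem good_cut (hD : ∀ W, D W ↔ D' (W ∩ A)) (t : ℝ) (l : Lv) (S G Y : Finset E) (hY : Y ⊆ A) :
    good t l D S G Y ↔ good t l D' (S ∩ A) (G ∩ A) Y := by
  unfold good
  have h1 : Th t (S \ G) (fun N => F.ind (¬ D (Y ∪ G ∪ N))) =
      Th t ((S ∩ A) \ (G ∩ A)) (fun N => F.ind (¬ D' (Y ∪ G ∩ A ∪ N))) := by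
    have h2 : (fun N : Finset E => F.ind (¬ D (Y ∪ G ∪ N))) =
        fun N => (fun N => F.ind (¬ D' (Y ∪ G ∩ A ∪ N))) (N ∩ A) := by
      funext N
      dsimp only
      refine ind_eq (not_congr ?_)
      rw [hD]
      have h3 : (Y ∪ G ∪ N) ∩ A = Y ∪ G ∩ A ∪ N ∩ A := by
        rw [union_inter_distrib_right, union_inter_distrib_right, inter_eq_left.2 hY]
      rw [h3]
    have h4 : (S \ G) ∩ A = (S ∩ A) \ (G ∩ A) := by
      ext e
      simp only [mem_inter, mem_sdiff]
      tauto
    rw [h2, Th_res t (S \ G) A (fun N => F.ind (¬ D' (Y ∪ G ∩ A ∪ N))), h4]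
  rw [h1]

theorem ff_cut (hD : ∀ W, D W ↔ D' (W ∩ A)) (g t : ℝ) (l : Lv) (S X : Finset E) (hX : X ⊆ A) :
    ff g t l D S X = ff g t l D' (S ∩ A) X := by
  unfold ff
  rw [← Th_res g S A]
  have h : (fun G : Finset E => F.ind (¬ ∃ Y ⊆ X, good t l D S G Y)) =
      fun G => F.ind (¬ ∃ Y ⊆ X, good t l D' (S ∩ A) (G ∩ A) Y) := by
    funext G
    refine ind_eq (not_congr ?_)
    constructor
    · rintro ⟨Y, hY, h⟩
      exact ⟨Y, hY, (good_cut hD t l S G Y (hY.trans hX)).1 h⟩
    · rintro ⟨Y, hY, h⟩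
      exact ⟨Y, hY, (good_cut hD t l S G Y (hY.trans hX)).2 h⟩
  rw [h]

theorem vio_cut (hD : ∀ W, D W ↔ D' (W ∩ A)) (g t : ℝ) (l : Lv) (S X : Finset E) (hX : X ⊆ A) :
    vio g t l D S X ↔ vio g t l D' (S ∩ A) X := by
  unfold vio
  rw [ff_cut hD g t l S X hX]

theorem Bad_cut (hD : ∀ W, D W ↔ D' (W ∩ A)) (g t : ℝ) (B j : ℕ) (S X : Finset E) (hX : X ⊆ A) :
    Bad g t B j D S X ↔ Bad g t B j D' (S ∩ A) X := by
  unfold Bad
  refine and_congr (vio_cut hD _ _ _ _ _ hX) (and_congr ?_ ?_)
  · refine forall_congr' fun X' => imp_congr_right fun h => not_congr ?_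
    exact vio_cut hD _ _ _ _ _ (h.subset.trans hX)
  · refine forall_congr' fun X' => imp_congr_right fun h => not_congr ?_
    exact vio_cut hD _ _ _ _ _ (h.trans hX)

end cut

/-- the label of `z` is independent of an event which does not see it -/
theorem EX_ind_label {L : Type} [Fintype L] (w : E → L → ℝ) (hw1 : ∀ e, ∑ l, w e l = 1)
    (z : E) (v : L) (F : (E → L) → ℝ) (hF : ∀ ω l, F (Function.update ω z l) = F ω) :
    EX w (fun ω => Vale.Agent.P331.F.ind (ω z = v) * F ω) = w z v * EX w F := by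
  have h2 : EX w F = EX (Function.update w z (Pi.single v 1)) F := by
    rw [EX_split z v w F]
    have h3 : ∀ l, (fun ω : E → L => F (Function.update ω z l)) = F := fun l => by
      funext ω
      exact hF ω l
    simp only [h3]
    rw [← sum_mul, hw1, one_mul]
  have h4 : (fun ω : E → L => Vale.Agent.P331.F.ind (ω z = v) * F ω) =
      fun ω => if ω z = v then F ω else 0 := by
    funext ω
    unfold Vale.Agent.P331.F.ind
    by_cases h : ω z = v
    · rw [if_pos h, if_pos h, one_mul]
    · rw [if_neg h, if_neg h, zero_mul]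
  rw [h4, EX_cond z v v w F, h2]
  have h3 : (fun ω : E → L => F (Function.update ω z v)) = F := by
    funext ω
    exact hF ω v
  rw [h3]

theorem rowBl : RowBl := by
  intro E _ M hM p g n lam B hp0 hp1 hC lt hlt b z hzb
  set A : Finset E := univ.filter fun e => lt z e with hA
  have hzA : z ∉ A := by
    rw [hA, mem_filter]
    rintro ⟨-, h⟩
    exact irrefl_of lt z h
  set Dz : Finset E → Prop := fun W => z ∈ M.closure (W : Set E) with hDz
  have hD : ∀ W, DD M lt z W ↔ Dz (W ∩ A) := by
    intro W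
    have h : ({e | lt z e ∧ e ∈ W} : Set E) = ((W ∩ A : Finset E) : Set E) := by
      ext e
      simp [hA, and_comm]
    show z ∈ M.closure {e | lt z e ∧ e ∈ W} ↔ z ∈ M.closure ((W ∩ A : Finset E) : Set E)
    rw [h]
  -- the event
  set ev : ℕ → (E → Bool) → ℝ := fun j ω => F.ind (∃ K ⊆ tset ω ∩ A, b ∈ K ∧
    Bad g (n / (1 - g)) B j Dz ((univ \ tset ω) ∩ A) K) with hev
  have hinv : ∀ j ω l, ev j (Function.update ω z l) = ev j ω := by
    intro j ω l
    have e1 : tset (Function.update ω z l) ∩ A = tset ω ∩ A := by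
      ext e
      rw [mem_inter, mem_inter, mem_tset, mem_tset]
      by_cases he : e = z
      · subst he
        simp [hzA]
      · rw [Function.update_of_ne he]
    have e2 : (univ \ tset (Function.update ω z l)) ∩ A = (univ \ tset ω) ∩ A := by
      ext e
      rw [mem_inter, mem_inter, mem_sdiff, mem_sdiff, mem_tset, mem_tset]
      by_cases he : e = z
      · subst he
        simp [hzA]
      · rw [Function.update_of_ne he]
    simp only [hev, e1, e2]
  have hw0 : ∀ (e : E) (l : Bool), 0 ≤ (frame E M p g n B hp0 hp1).w l := fun _ l =>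
    (frame E M p g n B hp0 hp1).w0 l
  have hpt : ∀ ω : E → Bool, (if Blame (frame E M p g n B hp0 hp1) lt b z ω then (1 : ℝ) else 0) ≤
      ∑ j ∈ Icc 1 (Fintype.card E), F.ind (ω z = true) * ev j ω := by
    intro ω
    have s0 : ∀ j ∈ Icc 1 (Fintype.card E), (0 : ℝ) ≤ F.ind (ω z = true) * ev j ω := by
      intro j _
      exact mul_nonneg (ind_nn _) (ind_nn _)
    by_cases hb : Blame (frame E M p g n B hp0 hp1) lt b z ω
    · rw [if_pos hb]
      obtain ⟨h1, h2, h3, K, hbK, hK, hf, hmin⟩ := hb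
      obtain ⟨j, hj1, hj2, hbad⟩ := hf
      have hz : ω z = true := h2
      have hfs : fs (hs (frame E M p g n B hp0 hp1).v ω lt z) = (univ \ tset ω) ∩ A := by
        ext e
        simp only [fs, hs, mem_filter, mem_univ, true_and, mem_inter, mem_sdiff, mem_tset, hA,
          Set.mem_setOf_eq]
        exact and_comm
      have h4 : (F.ind (ω z = true) * ev j ω) = 1 := by
        simp only [hev]
        unfold F.ind
        rw [if_pos hz, one_mul]
        refine if_pos ⟨K, ?_, hbK, ?_⟩
        · intro e he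
          rw [mem_inter, mem_tset, hA, mem_filter]
          exact ⟨(hK e he).1, mem_univ e, (hK e he).2⟩
        · rw [← hfs]
          exact hbad
      have h5 := single_le_sum (f := fun j => F.ind (ω z = true) * ev j ω) s0
        (mem_Icc.2 ⟨hj1, hj2⟩)
      rw [h4] at h5
      exact h5
    · rw [if_neg hb]
      exact sum_nonneg s0
  refine (EX_mono (w := fun _ : E => (frame E M p g n B hp0 hp1).w) hw0 hpt).trans ?_
  rw [EX_sum, mul_sum]
  refine sum_le_sum fun j _ => ?_
  rw [EX_ind_label (fun _ : E => (frame E M p g n B hp0 hp1).w)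
    (fun _ => (frame E M p g n B hp0 hp1).w1) z true (ev j) (hinv j)]
  have hwz : (frame E M p g n B hp0 hp1).w true = p := rfl
  rw [hwz]
  refine mul_le_mul_of_nonneg_left ?_ hp0
  rw [← EX_Th p]
  refine EX_mono (w := fun (_ : E) (b : Bool) => if b then p else 1 - p)
    (fun e l => hw0 e l) fun ω => ?_
  simp only [hev]
  refine ind_le ?_
  rintro ⟨K, hK, hbK, hbad⟩
  refine ⟨K, hK.trans inter_subset_left, hbK, ?_⟩
  exact (Bad_cut hD _ _ _ _ _ _ (hK.trans inter_subset_right)).2 hbad

end Vale.Agent.P331.H226.BL
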