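import Vale.Agent.P331.H250.Ker
import Vale.Agent.P331.H379.JLabel

/-!
# P331 : Lemma L (luck), assembly
-/

set_option autoImplicit false
set_option linter.all false

namespace Vale.Agent.P331.H226

open Finset Vale.Agent.P331.H489 Vale.Agent.P331.H250 Vale.Agent.P331.H379
open scoped Classical

variable {E : Type*} [Fintype E]

/-- indicator -/
noncomputable def ind (P : Prop) : ℝ := if P then 1 else 0

theorem ind_nonneg (P : Prop) : 0 ≤ ind P := by unfold ind; split_ifs <;> norm_num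
theorem ind_le_one (P : Prop) : ind P ≤ 1 := by unfold ind; split_ifs <;> norm_num
theorem ind_mono {P Q : Prop} (h : P → Q) : ind P ≤ ind Q := by
  unfold ind
  by_cases hP : P
  · rw [if_pos hP, if_pos (h hP)]
  · rw [if_neg hP]; split_ifs <;> norm_num
theorem ind_true {P : Prop} (h : P) : ind P = 1 := if_pos h
theorem ind_false {P : Prop} (h : ¬ P) : ind P = 0 := if_neg h
theorem ind_or_le (P Q : Prop) : ind (P ∨ Q) ≤ ind P + ind Q := by
  by_cases hP : P
  · rw [ind_true hP]; have := ind_le_one (P ∨ Q); have := ind_nonneg Q; linarith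
  · by_cases hQ : Q
    · rw [ind_true hQ]; have := ind_le_one (P ∨ Q); have := ind_nonneg P; linarith
    · rw [ind_false (fun h => h.elim hP hQ)]; have := ind_nonneg P; have := ind_nonneg Q; linarith

/-- probability that `W ∪ N ∉ D`, `N` a thinning of `R` -/
noncomputable def ms (D : Finset E → Prop) (ρ : ℝ) (R W : Finset E) : ℝ :=
  TH (fun _ => ρ) R fun N => ind (¬ D (W ∪ N))

/-- `Y` is good for `G` in the sample `S` -/
def gd (D : Finset E → Prop) (κ : ℕ) (ρ β : ℝ) (S G Y : Finset E) : Prop :=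
  Y.card ≤ κ ∧ ms D ρ (S \ G) (Y ∪ G) ≤ β / (Y.card + 1)

/-- probability that `X` contains no good set -/
noncomputable def fX (D : Finset E → Prop) (κ : ℕ) (γ ρ β : ℝ) (S X : Finset E) : ℝ :=
  TH (fun _ => γ) S fun G => ind (¬ ∃ Y ⊆ X, gd D κ ρ β S G Y)

/-- the family of the sets which are good for the sample `R` -/
def Fa (D : Finset E → Prop) (κ : ℕ) (g ρ t a : ℝ) (R A : Finset E) : Prop :=
  1 - a ≤ TH (fun _ => g) R fun G => ind (∃ Y ⊆ A, Y.card ≤ κ ∧ ms D ρ (R \ G) (Y ∪ G) ≤ t)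

variable {D : Finset E → Prop}

theorem ms_nonneg {ρ : ℝ} (h0 : 0 ≤ ρ) (h1 : ρ ≤ 1) (R W : Finset E) : 0 ≤ ms D ρ R W :=
  TH_nonneg (fun _ => h0) (fun _ => h1) _ fun _ _ => ind_nonneg _

theorem ms_le_one {ρ : ℝ} (h0 : 0 ≤ ρ) (h1 : ρ ≤ 1) (R W : Finset E) : ms D ρ R W ≤ 1 := by
  have := TH_mono (r := fun _ : E => ρ) (fun _ => h0) (fun _ => h1) R
    (f := fun N => ind (¬ D (W ∪ N))) (g := fun _ => 1) fun _ _ => ind_le_one _
  rwa [TH_const] at this

theorem ms_anti {ρ : ℝ} (h0 : 0 ≤ ρ) (h1 : ρ ≤ 1) (hD : ∀ A B, A ⊆ B → D A → D B) {R W W' : Finset E}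
    (h : W ⊆ W') : ms D ρ R W' ≤ ms D ρ R W :=
  TH_mono (fun _ => h0) (fun _ => h1) _ fun N _ =>
    ind_mono fun h' hD' => h' (hD _ _ (union_subset_union_left h) hD')

/-- pivotality probability -/
noncomputable def pv (D : Finset E → Prop) (ρ : ℝ) (R W : Finset E) (e : E) : ℝ :=
  TH (fun _ => ρ) R fun N => ind (D (insert e (W ∪ N)) ∧ ¬ D (W ∪ N))

/-- removing one element -/
theorem ms_erase {ρ : ℝ} (h0 : 0 ≤ ρ) (h1 : ρ ≤ 1) (R W : Finset E) (e : E) :
    ms D ρ R W ≤ ms D ρ R (insert e W) + pv D ρ R W e := by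
  unfold ms pv
  rw [← TH_add]
  refine TH_mono (fun _ => h0) (fun _ => h1) _ fun N _ => ?_
  by_cases h2 : D (W ∪ N)
  · rw [ind_false (not_not.mpr h2)]
    exact add_nonneg (ind_nonneg _) (ind_nonneg _)
  · by_cases h3 : D (insert e W ∪ N)
    · have h4 : D (insert e (W ∪ N)) := by rwa [insert_union] at h3
      rw [ind_true (show D (insert e (W ∪ N)) ∧ ¬ D (W ∪ N) from ⟨h4, h2⟩)]
      have := ind_le_one (¬ D (W ∪ N))
      have := ind_nonneg (¬ D (insert e W ∪ N))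
      linarith
    · rw [ind_true (P := ¬ D (insert e W ∪ N)) h3]
      have := ind_le_one (¬ D (W ∪ N))
      have := ind_nonneg (D (insert e (W ∪ N)) ∧ ¬ D (W ∪ N))
      linarith

/-- the significance event of an element -/
def Ae (D : Finset E → Prop) (κ : ℕ) (ρ β : ℝ) (H S G : Finset E) (e : E) : Prop :=
  e ∈ H \ S ∧ ∃ Y ⊆ (H \ S).erase e, Y.card ≤ κ ∧
    β / ((κ : ℝ) + 1) ^ 2 ≤ pv D ρ (S \ G) (Y ∪ G) e

/-- a good set, but none in `X ∩ Es`: some element of `X` off `Es` is significant -/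
theorem sig_of {κ : ℕ} {ρ β : ℝ} (h0 : 0 ≤ ρ) (h1 : ρ ≤ 1) (hβ : 0 ≤ β) {H S X G Es : Finset E}
    (hX : X ⊆ H \ S) (hg : ∃ Y ⊆ X, gd D κ ρ β S G Y)
    (hn : ¬ ∃ Y ⊆ X ∩ Es, gd D κ ρ β S G Y) :
    ∃ e ∈ H \ Es, Ae D κ ρ β H S G e := by
  obtain ⟨Y, hY, hmin⟩ := exists_min_image (X.powerset.filter fun Y => gd D κ ρ β S G Y)
    Finset.card (by
      obtain ⟨Y, h2, h3⟩ := hg
      exact ⟨Y, by simp [h2, h3]⟩)
  simp only [mem_filter, mem_powerset] at hY hmin
  have hnot : ¬ Y ⊆ Es := fun h => hn ⟨Y, subset_inter hY.1 h, hY.2⟩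
  obtain ⟨e, heY, heE⟩ := not_subset.mp hnot
  have heH := hX (hY.1 heY)
  refine ⟨e, mem_sdiff.mpr ⟨(mem_sdiff.mp heH).1, heE⟩, heH, Y.erase e, erase_subset_erase e
    (hY.1.trans hX), (card_erase_le).trans hY.2.1, ?_⟩
  have hc : (Y.erase e).card + 1 = Y.card := card_erase_add_one heY
  have hng : ¬ gd D κ ρ β S G (Y.erase e) := by
    intro h2
    have h3 := hmin (Y.erase e) ⟨(erase_subset _ _).trans hY.1, h2⟩
    omega
  have hlt : β / Y.card < ms D ρ (S \ G) (Y.erase e ∪ G) := by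
    by_contra h2
    refine hng ⟨(card_erase_le).trans hY.2.1, ?_⟩
    have : (((Y.erase e).card : ℝ) + 1) = Y.card := by exact_mod_cast hc
    rw [this]
    exact not_lt.mp h2
  have h2 := ms_erase (D := D) h0 h1 (S \ G) (Y.erase e ∪ G) e
  have h3 : insert e (Y.erase e ∪ G) = Y ∪ G := by rw [← insert_union, insert_erase heY]
  rw [h3] at h2
  have h4 := hY.2.2
  have hYc : (0 : ℝ) < Y.card := by
    have : 0 < Y.card := card_pos.mpr ⟨e, heY⟩
    exact_mod_cast this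
  have hYκ : (Y.card : ℝ) ≤ κ := by exact_mod_cast hY.2.1
  have h5 : β / ((κ : ℝ) + 1) ^ 2 ≤ β / Y.card - β / (Y.card + 1) := by
    rw [div_sub_div _ _ hYc.ne' (by positivity), div_le_div_iff₀ (by positivity) (by positivity)]
    have : (Y.card : ℝ) * (Y.card + 1) ≤ ((κ : ℝ) + 1) ^ 2 := by nlinarith
    nlinarith
  linarith

end Vale.Agent.P331.H226
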