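import Vale.Agent.P331.H226.L

/-!
# P331 : Lemma L (luck), assembly (2)
-/

set_option autoImplicit false
set_option linter.all false

namespace Vale.Agent.P331.H226

open Finset Vale.Agent.P331.H489 Vale.Agent.P331.H250 Vale.Agent.P331.H379
open scoped Classical

/-- labels: `lv` test, `lg` pool, `lr` rest of the sample, `lo` off the ground set -/
inductive L4 | lv | lg | lr | lo
  deriving DecidableEq

open L4

instance : Fintype L4 := ⟨{lv, lg, lr, lo}, by intro x; cases x <;> simp⟩

theorem sum_L4 (f : L4 → ℝ) : ∑ l, f l = f lv + f lg + f lr + f lo := by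
  have h : (univ : Finset L4) = {lv, lg, lr, lo} := rfl
  rw [h, sum_insert (by simp), sum_insert (by simp), sum_insert (by simp), sum_singleton]
  ring

variable {E : Type*} [Fintype E]

/-- law of the labels on the ground set `H` -/
noncomputable def w4 (σ γ : ℝ) (H : Finset E) (e : E) : L4 → ℝ
  | lv => if e ∈ H then 1 - σ else 0
  | lg => if e ∈ H then σ * γ else 0
  | lr => if e ∈ H then σ * (1 - γ) else 0
  | lo => if e ∈ H then 0 else 1

theorem w4_sum (σ γ : ℝ) (H : Finset E) (e : E) : ∑ l, w4 σ γ H e l = 1 := by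
  rw [sum_L4]
  by_cases h : e ∈ H <;> simp [w4, h] <;> ring

theorem w4_nonneg {σ γ : ℝ} (hσ : 0 ≤ σ) (hσ1 : σ ≤ 1) (hγ : 0 ≤ γ) (hγ1 : γ ≤ 1) (H : Finset E)
    (e : E) (l : L4) : 0 ≤ w4 σ γ H e l := by
  have h1 : 0 ≤ 1 - σ := by linarith
  have h2 : 0 ≤ σ * γ := mul_nonneg hσ hγ
  have h3 : 0 ≤ σ * (1 - γ) := mul_nonneg hσ (by linarith)
  rcases l <;> simp only [w4] <;> split_ifs <;> first | assumption | norm_num

/-- sample and sub-pool as a labelling -/
theorem conv (σ γ : ℝ) (H : Finset E) (F : Finset E → Finset E → ℝ) :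
    TH (fun _ => σ) H (fun S => TH (fun _ => γ) S (fun G => F S G)) =
      EX (w4 σ γ H) (fun ω => F (lab lg ω ∪ lab lr ω) (lab lg ω)) := by
  let k : E → Bool → Bool → ℝ := fun e c b =>
    if c = true then (if b then γ else 1 - γ) else (if b then 0 else 1)
  let q : L4 → Bool × Bool := fun l =>
    match l with
    | lv => (false, false)
    | lg => (true, true)
    | lr => (true, false)
    | lo => (false, false)
  have h1 : TH (fun _ => σ) H (fun S => TH (fun _ => γ) S (fun G => F S G)) =
      EX (bw (fun _ => σ) H) (fun ω => EX (fun e => k e (ω e)) (fun ω' => F (tset ω) (tset ω'))) := by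
    unfold TH
    refine EX_congr (fun _ _ => rfl) fun ω => EX_congr (fun e b => ?_) fun _ => rfl
    simp only [bw, k, mem_tset]
  have h2 : EX (w4 σ γ H) (fun ω => F (lab lg ω ∪ lab lr ω) (lab lg ω)) =
      EX (w4 σ γ H) (fun ω => (fun τ : E → Bool × Bool => F (tset fun e => (τ e).1)
        (tset fun e => (τ e).2)) (q ∘ ω)) := by
    refine EX_congr (fun _ _ => rfl) fun ω => ?_
    have e1 : lab lg ω ∪ lab lr ω = tset fun e => ((q ∘ ω) e).1 := by
      ext e
      simp only [mem_union, mem_lab, mem_tset, Function.comp, q]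
      rcases ω e <;> simp
    have e2 : lab lg ω = tset fun e => ((q ∘ ω) e).2 := by
      ext e
      simp only [mem_lab, mem_tset, Function.comp, q]
      rcases ω e <;> simp
    show F (lab lg ω ∪ lab lr ω) (lab lg ω) = F (tset fun e => ((q ∘ ω) e).1)
      (tset fun e => ((q ∘ ω) e).2)
    rw [← e1, ← e2]
  rw [h1, EX_bind (bw (fun _ => σ) H) k (fun ω ω' => F (tset ω) (tset ω')), h2,
    EX_push q _ (fun τ : E → Bool × Bool => F (tset fun e => (τ e).1) (tset fun e => (τ e).2))]
  refine EX_congr (fun e c => ?_) fun _ => rfl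
  rw [sum_filter, sum_L4]
  obtain ⟨c1, c2⟩ := c
  by_cases he : e ∈ H
  · rcases c1 <;> rcases c2 <;> simp [bw, k, q, w4, he]
  · rcases c1 <;> rcases c2 <;> simp [bw, k, q, w4, he]

end Vale.Agent.P331.H226
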