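import Vale.Agent.P331.H226.L2

/-!
# P331 : Lemma L (luck), assembly (3)
-/

set_option autoImplicit false
set_option linter.all false

namespace Vale.Agent.P331.H226

open Finset Vale.Agent.P331.H489 Vale.Agent.P331.H250 Vale.Agent.P331.H379 L4
open scoped Classical

variable {E : Type*} [Fintype E] {D : Finset E → Prop}

theorem ind_congr {P Q : Prop} (h : P ↔ Q) : ind P = ind Q := by rw [propext h]

theorem Fa_mono {κ : ℕ} {g ρ t a : ℝ} (hg : 0 ≤ g) (hg1 : g ≤ 1) {R A B : Finset E} (h : A ⊆ B)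
    (hA : Fa D κ g ρ t a R A) : Fa D κ g ρ t a R B :=
  hA.trans (TH_mono (fun _ => hg) (fun _ => hg1) _ fun G _ =>
    ind_mono fun ⟨Y, h1, h2⟩ => ⟨Y, h1.trans h, h2⟩)

/-- **the J* step**: a selected test set `K` without good sets, but good for the rest of the
sample -/
theorem jstep {H : Finset E} {σ γ ρ θ g β' t a lam0 q4 : ℝ} {κ κ' : ℕ}
    (hσ : 0 ≤ σ) (hσ1 : σ ≤ 1) (hγ : 0 ≤ γ) (hγ1 : γ ≤ 1) (hg : 0 ≤ g) (hg1 : g ≤ 1)
    (hβ' : 0 ≤ β') (hlam0 : 1 ≤ lam0) (hlam : lam0 * (1 - σ) ≤ σ * γ)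
    (hQ : EX (w4 σ γ H) (fun ω => ind (Fa D κ g θ t a (lab lr ω) (lab lg ω) ∧
      β' / (κ' + 1) < ms D ρ (lab lr ω) (lab lg ω))) ≤ q4)
    (Ev : Finset E → Finset E → Prop) (K : Finset E → Finset E)
    (hK : ∀ S G, Ev S G → K S ⊆ H \ S ∧ (¬ ∃ Y ⊆ K S, gd D κ' ρ β' S G Y) ∧
      Fa D κ g θ t a (S \ G) (K S)) :
    TH (fun _ => σ) H (fun S => TH (fun _ => γ) S (fun G => ind (Ev S G))) ≤
      (lam0 ^ (κ' + 1))⁻¹ + q4 := by
  rw [conv]
  have hdisj : ∀ ω : E → L4, (lab lg ω ∪ lab lr ω) \ lab lg ω = lab lr ω := by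
    intro ω
    ext e
    simp only [mem_sdiff, mem_union, mem_lab]
    rcases h : ω e <;> simp
  have hw := w4_nonneg hσ hσ1 hγ hγ1 H
  -- the event on labellings of positive weight
  set Ew : (E → L4) → Prop := fun ω => Ev (lab lg ω ∪ lab lr ω) (lab lg ω) ∧
    (∀ e ∈ K (lab lg ω ∪ lab lr ω), ω e = lv) with hEw
  have hEq : EX (w4 σ γ H) (fun ω => ind (Ev (lab lg ω ∪ lab lr ω) (lab lg ω))) =
      EX (w4 σ γ H) (fun ω => ind (Ew ω)) := by
    refine EX_congr_supp fun ω hω => ind_congr ⟨fun h => ⟨h, fun e he => ?_⟩, fun h => h.1⟩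
    have h1 := (hK _ _ h).1 he
    rw [mem_sdiff, mem_union, mem_lab, mem_lab] at h1
    have h2 := hω e
    rcases h3 : ω e with _ | _ | _ | _
    · rfl
    · exact absurd (Or.inl h3) h1.2
    · exact absurd (Or.inr h3) h1.2
    · rw [h3] at h2
      simp [w4, h1.1] at h2
  rw [hEq]
  obtain ⟨U, hU1, hU2, hU3⟩ := jstar_label' (E := E) lv lg (by simp) (w4 σ γ H) hw lam0 hlam0
    (fun e => by
      by_cases he : e ∈ H <;> simp [w4, he]
      exact hlam)
    (fun ω A => Fa D κ g θ t a (lab lr ω) A) (fun ω A B h => Fa_mono hg hg1 h)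
    (fun ω ω' hs A hA => by
      have : lab lr ω = lab lr ω' := by
        ext e
        rw [mem_lab, mem_lab]
        rcases hs e with h | ⟨h1, h2⟩
        · rw [h]
        · constructor
          · intro h3; rw [h3] at h1; simp at h1
          · intro h3; rw [h3] at h2; simp at h2
      rwa [← this])
    Ew (fun ω => K (lab lg ω ∪ lab lr ω)) (fun ω hω => ⟨hω.2, by
      have h1 := (hK _ _ hω.1).2.2
      rwa [hdisj ω] at h1⟩)
  have h3 := hU3 (κ' + 1) (w4_sum σ γ H)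
  have h4 := hU2 (fun ω => ind (β' / (κ' + 1) < ms D ρ (lab lr ω) (lab lg ω)))
    fun ω => ind_nonneg _
  have h5 : EX (w4 σ γ H) (fun ω => if Fa D κ g θ t a (lab lr ω) (lab lg ω) then
      ind (β' / (κ' + 1) < ms D ρ (lab lr ω) (lab lg ω)) else 0) ≤ q4 := by
    refine le_trans (le_of_eq (EX_congr (fun _ _ => rfl) fun ω => ?_)) hQ
    by_cases h : Fa D κ g θ t a (lab lr ω) (lab lg ω)
    · rw [if_pos h]
      exact ind_congr ⟨fun h' => ⟨h, h'⟩, fun h' => h'.2⟩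
    · rw [if_neg h, ind_false fun h' => h h'.1]
  have h6 : EX (w4 σ γ H) (fun ω => if Ew ω ∧ κ' + 1 ≤ (U ω).card then (1 : ℝ) else 0) ≤
      (lam0 ^ (κ' + 1))⁻¹ := by
    have hp : 0 < lam0 ^ (κ' + 1) := by positivity
    rw [← one_div, le_div_iff₀ hp, mul_comm]
    refine le_trans (le_of_eq ?_) h3
    refine congrArg (lam0 ^ (κ' + 1) * ·) (EX_congr (fun _ _ => rfl) fun ω => ?_)
    by_cases h : Ew ω ∧ κ' + 1 ≤ (U ω).card
    · rw [if_pos h, if_pos h]
    · rw [if_neg h, if_neg h]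
  refine le_trans ?_ (add_le_add h6 (h4.trans h5))
  rw [← EX_add]
  refine EX_mono hw fun ω => ?_
  by_cases hE : Ew ω
  · rw [ind_true hE, if_pos hE]
    by_cases hc : κ' + 1 ≤ (U ω).card
    · rw [if_pos ⟨hE, hc⟩]
      have := ind_nonneg (β' / (κ' + 1) < ms D ρ (lab lr (H379.flip lg (U ω) ω)) (lab lg (H379.flip lg (U ω) ω)))
      linarith
    · rw [if_neg fun h => hc h.2, zero_add]
      have hUK := (hU1 ω hE).1
      have e1 : lab lr (H379.flip lg (U ω) ω) = lab lr ω := by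
        ext e
        rw [mem_lab, mem_lab]
        by_cases he : e ∈ U ω
        · have := hE.2 e (hUK he)
          simp [H379.flip, he, this]
        · simp [H379.flip, he]
      have e2 : lab lg (H379.flip lg (U ω) ω) = U ω ∪ lab lg ω := by
        ext e
        rw [mem_lab, mem_union, mem_lab]
        by_cases he : e ∈ U ω <;> simp [H379.flip, he]
      rw [e1, e2, ind_true]
      obtain ⟨h7, h8, h9⟩ := hK _ _ hE.1
      by_contra hcon
      refine h8 ⟨U ω, hUK, by omega, ?_⟩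
      rw [hdisj ω]
      refine (not_lt.mp hcon).trans ?_
      have h10 : ((U ω).card : ℝ) ≤ κ' := by
        have : (U ω).card ≤ κ' := by omega
        exact_mod_cast this
      gcongr
  · rw [ind_false hE, if_neg hE, if_neg fun h => hE h.1]
    simp

/-- **Lemma L, assembly** -/
theorem luck {H Es : Finset E} {σ γ ρ θ g β β' t a τ τ' lam0 q4 : ℝ} {κ κ' Z' : ℕ}
    (hσ : 0 ≤ σ) (hσ1 : σ ≤ 1) (hγ : 0 ≤ γ) (hγ1 : γ ≤ 1) (hρ : 0 ≤ ρ) (hρ1 : ρ ≤ 1)
    (hg : 0 ≤ g) (hg1 : g ≤ 1) (hβ' : 0 ≤ β') (hlam0 : 1 ≤ lam0)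
    (hlam : lam0 * (1 - σ) ≤ σ * γ) (hEs : Es.card ≤ Z') (hτ' : 0 < τ')
    (hT : ∀ S K, fX D κ γ ρ β S K ≤ τ →
      TH (fun _ => γ) S (fun G => ind (¬ Fa D κ g θ t a (S \ G) K)) ≤ τ' / 4)
    (hQ : EX (w4 σ γ H) (fun ω => ind (Fa D κ g θ t a (lab lr ω) (lab lg ω) ∧
      β' / (κ' + 1) < ms D ρ (lab lr ω) (lab lg ω))) ≤ q4) :
    TH (fun _ => σ) H (fun S => ind (∃ X ⊆ H \ S, fX D κ γ ρ β S X ≤ τ ∧
      ∀ X' ⊆ X, X'.card ≤ Z' → τ' < fX D κ' γ ρ β' S X')) ≤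
    2 / τ' * (∑ e ∈ H \ Es, TH (fun _ => σ) H (fun S => TH (fun _ => γ) S
      (fun G => ind (Ae D κ' ρ β' H S G e)))) + 4 / τ' * ((lam0 ^ (κ' + 1))⁻¹ + q4) := by
  have hS0 : ∀ e : E, 0 ≤ (fun _ : E => σ) e := fun _ => hσ
  have hS1 : ∀ e : E, (fun _ : E => σ) e ≤ 1 := fun _ => hσ1
  have hG0 : ∀ e : E, 0 ≤ (fun _ : E => γ) e := fun _ => hγ
  have hG1 : ∀ e : E, (fun _ : E => γ) e ≤ 1 := fun _ => hγ1
  -- the second case
  set B : Finset E → Finset E → Prop := fun S X => X ⊆ H \ S ∧ fX D κ γ ρ β S X ≤ τ ∧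
    τ' / 2 ≤ fX D κ' γ ρ β' S X with hB
  set K : Finset E → Finset E := fun S => if h : ∃ X, B S X then h.choose else ∅ with hK
  have hKB : ∀ S, (∃ X, B S X) → B S (K S) := by
    intro S h
    rw [hK]
    simp only [dif_pos h]
    exact h.choose_spec
  -- pointwise split
  have key : ∀ S, ind (∃ X ⊆ H \ S, fX D κ γ ρ β S X ≤ τ ∧
      ∀ X' ⊆ X, X'.card ≤ Z' → τ' < fX D κ' γ ρ β' S X') ≤
      2 / τ' * (∑ e ∈ H \ Es, TH (fun _ => γ) S (fun G => ind (Ae D κ' ρ β' H S G e))) +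
        4 / τ' * TH (fun _ => γ) S (fun G => ind ((∃ X, B S X) ∧
          (¬ ∃ Y ⊆ K S, gd D κ' ρ β' S G Y) ∧ Fa D κ g θ t a (S \ G) (K S))) := by
    intro S
    have n1 : 0 ≤ ∑ e ∈ H \ Es, TH (fun _ => γ) S (fun G => ind (Ae D κ' ρ β' H S G e)) :=
      sum_nonneg fun e _ => TH_nonneg hG0 hG1 _ fun _ _ => ind_nonneg _
    have n2 : 0 ≤ TH (fun _ => γ) S (fun G => ind ((∃ X, B S X) ∧
          (¬ ∃ Y ⊆ K S, gd D κ' ρ β' S G Y) ∧ Fa D κ g θ t a (S \ G) (K S))) :=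
      TH_nonneg hG0 hG1 _ fun _ _ => ind_nonneg _
    by_cases hbad : ∃ X ⊆ H \ S, fX D κ γ ρ β S X ≤ τ ∧
      ∀ X' ⊆ X, X'.card ≤ Z' → τ' < fX D κ' γ ρ β' S X'
    · rw [ind_true hbad]
      obtain ⟨X, hX, hf, hX'⟩ := hbad
      by_cases hcase : τ' / 2 ≤ fX D κ' γ ρ β' S X
      · -- second case
        have hex : ∃ X, B S X := ⟨X, hX, hf, hcase⟩
        obtain ⟨b1, b2, b3⟩ := hKB S hex
        have h1 := hT S (K S) b2
        have h2 : fX D κ' γ ρ β' S (K S) ≤ TH (fun _ => γ) S (fun G => ind ((∃ X, B S X) ∧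
          (¬ ∃ Y ⊆ K S, gd D κ' ρ β' S G Y) ∧ Fa D κ g θ t a (S \ G) (K S))) +
            TH (fun _ => γ) S (fun G => ind (¬ Fa D κ g θ t a (S \ G) (K S))) := by
          unfold fX
          rw [← TH_add]
          refine TH_mono hG0 hG1 _ fun G _ => ?_
          refine le_trans (ind_mono fun h => ?_) (ind_or_le _ _)
          by_cases hF : Fa D κ g θ t a (S \ G) (K S)
          · exact Or.inl ⟨hex, h, hF⟩
          · exact Or.inr hF
        have h3 : τ' / 4 ≤ TH (fun _ => γ) S (fun G => ind ((∃ X, B S X) ∧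
          (¬ ∃ Y ⊆ K S, gd D κ' ρ β' S G Y) ∧ Fa D κ g θ t a (S \ G) (K S))) := by linarith
        have h4 : 1 ≤ 4 / τ' * TH (fun _ => γ) S (fun G => ind ((∃ X, B S X) ∧
          (¬ ∃ Y ⊆ K S, gd D κ' ρ β' S G Y) ∧ Fa D κ g θ t a (S \ G) (K S))) := by
          rw [div_mul_eq_mul_div, le_div_iff₀ hτ']
          linarith
        have h5 : 0 ≤ 2 / τ' * (∑ e ∈ H \ Es, TH (fun _ => γ) S
          (fun G => ind (Ae D κ' ρ β' H S G e))) := by positivity
        linarith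
      · -- first case
        have h1 := hX' (X ∩ Es) inter_subset_left ((card_le_card inter_subset_right).trans hEs)
        have h2 : fX D κ' γ ρ β' S (X ∩ Es) ≤ fX D κ' γ ρ β' S X +
            ∑ e ∈ H \ Es, TH (fun _ => γ) S (fun G => ind (Ae D κ' ρ β' H S G e)) := by
          rw [← TH_sum]
          unfold fX
          rw [← TH_add]
          refine TH_mono hG0 hG1 _ fun G _ => ?_
          by_cases hg1' : ∃ Y ⊆ X ∩ Es, gd D κ' ρ β' S G Y
          · rw [ind_false (not_not.mpr hg1')]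
            exact add_nonneg (ind_nonneg _) (sum_nonneg fun _ _ => ind_nonneg _)
          · by_cases hg2 : ∃ Y ⊆ X, gd D κ' ρ β' S G Y
            · obtain ⟨e, he, hAe⟩ := sig_of hρ hρ1 hβ' hX hg2 hg1'
              have h3 : ind (Ae D κ' ρ β' H S G e) ≤
                  ∑ e ∈ H \ Es, ind (Ae D κ' ρ β' H S G e) :=
                single_le_sum (f := fun e => ind (Ae D κ' ρ β' H S G e))
                  (fun _ _ => ind_nonneg _) he
              rw [ind_true hAe] at h3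
              have h4 := ind_le_one (¬ ∃ Y ⊆ X ∩ Es, gd D κ' ρ β' S G Y)
              have h5 := ind_nonneg (¬ ∃ Y ⊆ X, gd D κ' ρ β' S G Y)
              linarith
            · rw [ind_true (P := ¬ ∃ Y ⊆ X, gd D κ' ρ β' S G Y) hg2]
              have h4 := ind_le_one (¬ ∃ Y ⊆ X ∩ Es, gd D κ' ρ β' S G Y)
              have h5 : 0 ≤ ∑ e ∈ H \ Es, ind (Ae D κ' ρ β' H S G e) :=
                sum_nonneg fun _ _ => ind_nonneg _
              linarith
        have h3 : τ' / 2 ≤ ∑ e ∈ H \ Es, TH (fun _ => γ) S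
          (fun G => ind (Ae D κ' ρ β' H S G e)) := by
          have := not_le.mp hcase
          linarith
        have h4 : 1 ≤ 2 / τ' * (∑ e ∈ H \ Es, TH (fun _ => γ) S
          (fun G => ind (Ae D κ' ρ β' H S G e))) := by
          rw [div_mul_eq_mul_div, le_div_iff₀ hτ']
          linarith
        have h5 : 0 ≤ 4 / τ' * TH (fun _ => γ) S (fun G => ind ((∃ X, B S X) ∧
          (¬ ∃ Y ⊆ K S, gd D κ' ρ β' S G Y) ∧ Fa D κ g θ t a (S \ G) (K S))) := by positivity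
        linarith
    · rw [ind_false hbad]
      positivity
  have h1 := TH_mono hS0 hS1 H (fun S _ => key S)
  refine h1.trans ?_
  rw [TH_add, TH_mul, TH_mul, TH_sum]
  have h2 := jstep (ρ := ρ) hσ hσ1 hγ hγ1 hg hg1 hβ' hlam0 hlam hQ
    (fun S G => (∃ X, B S X) ∧ (¬ ∃ Y ⊆ K S, gd D κ' ρ β' S G Y) ∧
      Fa D κ g θ t a (S \ G) (K S)) K (fun S G h => ⟨(hKB S h.1).1, h.2⟩)
  have h3 : 0 ≤ 4 / τ' := by positivity
  exact add_le_add le_rfl (mul_le_mul_of_nonneg_left h2 h3)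

end Vale.Agent.P331.H226
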